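import Mathlib

/-!
# P235 / GRID, row G3

In a finite graph all of whose degrees are at most `3`, a connected vertex set which contains at
least `(m + 1) * (2 * k - 1)` marked vertices contains `m` pairwise disjoint connected vertex sets
each of which contains at least `k` marked vertices. (For a tree the connected vertex sets are the
subtrees.)
-/

namespace Vale.Agent.P235.H250

open Finset

variable {V : Type*}

/-- Reachability inside a set. -/
def RW (G : SimpleGraph V) (A : Set V) : V → V → Prop :=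
  Relation.ReflTransGen (fun x y => G.Adj x y ∧ y ∈ A)

/-- A vertex set inducing a connected graph. -/
def Conn (G : SimpleGraph V) (A : Set V) : Prop :=
  A.Nonempty ∧ ∀ a ∈ A, ∀ b ∈ A, RW G A a b

theorem RW.mem {G : SimpleGraph V} {A : Set V} {a b : V} (h : RW G A a b) (ha : a ∈ A) :
    b ∈ A := by
  induction h with
  | refl => exact ha
  | tail _ h2 _ => exact h2.2

theorem RW.mono {G : SimpleGraph V} {A B : Set V} (hAB : A ⊆ B) {a b : V} (h : RW G A a b) :
    RW G B a b := by
  induction h with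
  | refl => exact Relation.ReflTransGen.refl
  | tail _ h2 ih => exact Relation.ReflTransGen.tail ih ⟨h2.1, hAB h2.2⟩

theorem RW.trans {G : SimpleGraph V} {A : Set V} {a b c : V} (h : RW G A a b) (h' : RW G A b c) :
    RW G A a c := Relation.ReflTransGen.trans h h'

theorem RW.symm {G : SimpleGraph V} {A : Set V} {a b : V} (h : RW G A a b) (ha : a ∈ A) :
    RW G A b a := by
  induction h with
  | refl => exact Relation.ReflTransGen.refl
  | tail h1 h2 ih =>
    exact Relation.ReflTransGen.head ⟨h2.1.symm, RW.mem h1 ha⟩ ih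

theorem RW.single {G : SimpleGraph V} {A : Set V} {a b : V} (h : G.Adj a b) (hb : b ∈ A) :
    RW G A a b := Relation.ReflTransGen.single ⟨h, hb⟩

theorem RW.reachable {G : SimpleGraph V} {A : Set V} {a b : V} (h : RW G A a b) (ha : a ∈ A) :
    ∃ hb : b ∈ A, (G.induce A).Reachable ⟨a, ha⟩ ⟨b, hb⟩ := by
  induction h with
  | refl => exact ⟨ha, SimpleGraph.Reachable.refl _⟩
  | tail h1 h2 ih =>
    obtain ⟨hb, hr⟩ := ih
    refine ⟨h2.2, hr.trans (SimpleGraph.Adj.reachable ?_)⟩
    simpa using h2.1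

theorem Conn.connected {G : SimpleGraph V} {A : Set V} (h : Conn G A) :
    (G.induce A).Connected := by
  obtain ⟨⟨a, ha⟩, h2⟩ := h
  have : Nonempty A := ⟨⟨a, ha⟩⟩
  refine SimpleGraph.Connected.mk ?_
  rintro ⟨x, hx⟩ ⟨y, hy⟩
  exact (RW.reachable (h2 x hx y hy) hx).2

theorem conn_of_connected {G : SimpleGraph V} {A : Set V} (h : (G.induce A).Connected) :
    Conn G A := by
  refine ⟨Set.nonempty_coe_sort.mp h.nonempty, ?_⟩
  intro a ha b hb
  obtain ⟨p⟩ := h.preconnected ⟨a, ha⟩ ⟨b, hb⟩
  have key : ∀ (x y : A) (_ : (G.induce A).Walk x y), RW G A x.1 y.1 := by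
    intro x y p
    induction p with
    | nil => exact Relation.ReflTransGen.refl
    | @cons u v w h q ih =>
      refine RW.trans (RW.single ?_ v.2) ih
      simpa using h
  exact key _ _ p

theorem conn_iff {G : SimpleGraph V} {A : Set V} : Conn G A ↔ (G.induce A).Connected :=
  ⟨Conn.connected, conn_of_connected⟩

theorem conn_of_root {G : SimpleGraph V} {A : Set V} {r : V} (hr : r ∈ A)
    (h : ∀ b ∈ A, RW G A b r) : Conn G A :=
  ⟨⟨r, hr⟩, fun a ha b hb => (h a ha).trans ((h b hb).symm hb)⟩

/-- The component of `a` in `A`. -/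
def cmp (G : SimpleGraph V) (A : Set V) (a : V) : Set V := {b | b ∈ A ∧ RW G A a b}

theorem conn_cmp {G : SimpleGraph V} {A : Set V} {a : V} (ha : a ∈ A) : Conn G (cmp G A a) := by
  have key : ∀ b, RW G A a b → RW G (cmp G A a) a b := by
    intro b hb
    induction hb with
    | refl => exact Relation.ReflTransGen.refl
    | tail h1 h2 ih =>
      exact Relation.ReflTransGen.tail ih ⟨h2.1, h2.2, Relation.ReflTransGen.tail h1 h2⟩
  have hamem : a ∈ cmp G A a := ⟨ha, Relation.ReflTransGen.refl⟩
  exact conn_of_root hamem fun b hb => (key b hb.2).symm hamem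

section Fin

variable [Fintype V] [DecidableEq V]

open Classical in
/-- One step: a connected set with many marked vertices has, next to every vertex `r`, a
component with at least `k` marked vertices. -/
theorem core (G : SimpleGraph V) (X : Finset V) {k : ℕ} (hk : 1 ≤ k)
    (hdeg : ∀ v, (univ.filter (G.Adj v)).card ≤ 3) (S : Finset V) (hS : Conn G (S : Set V))
    {r : V} (hr : r ∈ S) {j : ℕ} (hj : (S.filter (G.Adj r)).card ≤ j)
    (hX : j * (k - 1) + 1 < (X ∩ S).card) :
    ∃ C : Finset V, C ⊆ S ∧ r ∉ C ∧ Conn G (C : Set V) ∧ k ≤ (X ∩ C).card ∧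
      Conn G ((S \ C : Finset V) : Set V) ∧
      ∃ r' ∈ C, G.Adj r' r ∧ (C.filter (G.Adj r')).card ≤ 2 := by
  set A : Set V := (S : Set V) \ {r} with hA
  have hAS : A ⊆ (S : Set V) := Set.sdiff_subset
  have hrA : r ∉ A := fun h => h.2 rfl
  let C : V → Finset V := fun a => univ.filter (fun b => b ∈ cmp G A a)
  have hCmem : ∀ a b, b ∈ C a ↔ b ∈ cmp G A a := fun a b => by simp [C]
  have hCcoe : ∀ a, ((C a : Finset V) : Set V) = cmp G A a := fun a => by
    ext b; simp [C]
  -- every component has a vertex adjacent to `r`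
  have hnb : ∀ a ∈ A, ∃ r' ∈ C a, G.Adj r' r := by
    intro a ha
    have h1 : RW G (S : Set V) a r := hS.2 a (hAS ha) r hr
    have h2 : ∀ b, RW G (S : Set V) a b → b ∈ cmp G A a ∨ ∃ r' ∈ cmp G A a, G.Adj r' r := by
      intro b hb
      induction hb with
      | refl => exact Or.inl ⟨ha, Relation.ReflTransGen.refl⟩
      | @tail b c h1 h2 ih =>
        rcases ih with ih | ih
        · by_cases hc : c = r
          · subst hc
            exact Or.inr ⟨b, ih, h2.1⟩
          · left
            have hcA : c ∈ A := ⟨h2.2, hc⟩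
            exact ⟨hcA, Relation.ReflTransGen.tail ih.2 ⟨h2.1, hcA⟩⟩
        · exact Or.inr ih
    rcases h2 r h1 with h | ⟨r', h3, h4⟩
    · exact absurd h.1 hrA
    · exact ⟨r', (hCmem a r').2 h3, h4⟩
  by_cases hex : ∃ a ∈ A, k ≤ (X ∩ C a).card
  · obtain ⟨a, ha, hka⟩ := hex
    obtain ⟨r', hr', hadj⟩ := hnb a ha
    have hCS : C a ⊆ S := fun b hb => hAS ((hCmem a b).1 hb).1
    have hrC : r ∉ C a := fun h => hrA ((hCmem a r).1 h).1
    refine ⟨C a, hCS, hrC, ?_, hka, ?_, r', hr', hadj, ?_⟩
    · rw [hCcoe]; exact conn_cmp ha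
    · have hrm : r ∈ ((S \ C a : Finset V) : Set V) := by
        simp [hr, hrC]
      refine conn_of_root hrm ?_
      intro b hb
      have hb' : b ∈ S ∧ b ∉ C a := by simpa using hb
      have h2 : ∀ c, RW G (S : Set V) b c →
          RW G ((S \ C a : Finset V) : Set V) b c ∨ RW G ((S \ C a : Finset V) : Set V) b r := by
        intro c hc
        induction hc with
        | refl => exact Or.inl Relation.ReflTransGen.refl
        | @tail c d h1 h2 ih =>
          rcases ih with ih | ih
          · have hcm : c ∈ ((S \ C a : Finset V) : Set V) := RW.mem ih hb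
            have hcm' : c ∈ S ∧ c ∉ C a := by simpa using hcm
            by_cases hd : d ∈ C a
            · right
              by_cases hcr : c = r
              · rw [← hcr]; exact ih
              · exfalso
                have hcA : c ∈ A := ⟨hcm'.1, hcr⟩
                have hd' := (hCmem a d).1 hd
                exact hcm'.2 ((hCmem a c).2
                  ⟨hcA, RW.trans hd'.2 (RW.single h2.1.symm hcA)⟩)
            · left
              refine Relation.ReflTransGen.tail ih ⟨h2.1, ?_⟩
              have : d ∈ S := h2.2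
              simp [this, hd]
          · exact Or.inr ih
      rcases h2 r (hS.2 b hb'.1 r hr) with h | h <;> exact h
    · have hsub : (C a).filter (G.Adj r') ⊆ (univ.filter (G.Adj r')).erase r := by
        intro x hx
        rw [mem_filter] at hx
        rw [mem_erase, mem_filter]
        refine ⟨?_, mem_univ _, hx.2⟩
        rintro rfl
        exact hrC hx.1
      have h1 : r ∈ univ.filter (G.Adj r') := by simp [hadj]
      have h2 := card_le_card hsub
      rw [card_erase_of_mem h1] at h2
      have := hdeg r'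
      omega
  · exfalso
    push Not at hex
    have hcov : X ∩ S ⊆ insert r ((S.filter (G.Adj r)).biUnion (fun s => X ∩ C s)) := by
      intro b hb
      rw [mem_inter] at hb
      by_cases hbr : b = r
      · exact mem_insert.2 (Or.inl hbr)
      · refine mem_insert.2 (Or.inr (mem_biUnion.2 ?_))
        have hbA : b ∈ A := ⟨hb.2, hbr⟩
        obtain ⟨r', hr', hadj⟩ := hnb b hbA
        have h3 := (hCmem b r').1 hr'
        refine ⟨r', mem_filter.2 ⟨hAS h3.1, hadj.symm⟩, mem_inter.2 ⟨hb.1, ?_⟩⟩
        exact (hCmem r' b).2 ⟨hbA, h3.2.symm hbA⟩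
    have h1 := card_le_card hcov
    have h2 : (insert r ((S.filter (G.Adj r)).biUnion (fun s => X ∩ C s))).card ≤
        ((S.filter (G.Adj r)).biUnion (fun s => X ∩ C s)).card + 1 := card_insert_le _ _
    have h3 : ((S.filter (G.Adj r)).biUnion (fun s => X ∩ C s)).card ≤
        (S.filter (G.Adj r)).card * (k - 1) := by
      refine card_biUnion_le_card_mul _ _ _ ?_
      intro s hs
      rw [mem_filter] at hs
      have hsA : s ∈ A := ⟨hs.1, fun h => G.loopless.irrefl r (by
        have h' : s = r := h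
        rw [h'] at hs
        exact hs.2)⟩
      have := hex s hsA
      omega
    have h4 : (S.filter (G.Adj r)).card * (k - 1) ≤ j * (k - 1) := Nat.mul_le_mul_right _ hj
    omega

open Classical in
/-- Peeling off a connected piece with between `k` and `2 k - 1` marked vertices, root version. -/
theorem peel_root (G : SimpleGraph V) (X : Finset V) {k : ℕ} (hk : 1 ≤ k)
    (hdeg : ∀ v, (univ.filter (G.Adj v)).card ≤ 3) :
    ∀ n : ℕ, ∀ S : Finset V, S.card = n → Conn G (S : Set V) → ∀ r ∈ S,
      (S.filter (G.Adj r)).card ≤ 2 → k ≤ (X ∩ S).card →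
      ∃ S' : Finset V, S' ⊆ S ∧ Conn G (S' : Set V) ∧ k ≤ (X ∩ S').card ∧
        (X ∩ S').card ≤ 2 * k - 1 ∧
        (S \ S' = ∅ ∨ (r ∈ S \ S' ∧ Conn G ((S \ S' : Finset V) : Set V))) := by
  intro n
  induction n using Nat.strong_induction_on with
  | _ n ih =>
    intro S hn hS r hr hd hX
    by_cases hle : (X ∩ S).card ≤ 2 * k - 1
    · exact ⟨S, Subset.refl _, hS, hX, hle, Or.inl (by simp)⟩
    · obtain ⟨C, hCS, hrC, hC, hkC, hSC, r', hr', hadj, hd'⟩ :=
        core G X hk hdeg S hS hr hd (by omega)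
      have hlt : C.card < n := by
        rw [← hn]
        refine card_lt_card ⟨hCS, fun h => hrC (h hr)⟩
      obtain ⟨S', hS'C, h1, h2, h3, h4⟩ := ih C.card hlt C rfl hC r' hr' hd' hkC
      have hrS' : r ∉ S' := fun h => hrC (hS'C h)
      have hrm : r ∈ S \ S' := mem_sdiff.2 ⟨hr, hrS'⟩
      refine ⟨S', hS'C.trans hCS, h1, h2, h3, Or.inr ⟨hrm, ?_⟩⟩
      have hrm' : r ∈ ((S \ S' : Finset V) : Set V) := by exact_mod_cast hrm
      refine conn_of_root hrm' ?_
      intro b hb
      have hb' : b ∈ S ∧ b ∉ S' := by simpa using hb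
      have hsub1 : ((S \ C : Finset V) : Set V) ⊆ ((S \ S' : Finset V) : Set V) := by
        intro x hx
        have hx' : x ∈ S ∧ x ∉ C := by simpa using hx
        have : x ∈ S ∧ x ∉ S' := ⟨hx'.1, fun h => hx'.2 (hS'C h)⟩
        simpa using this
      have hsub2 : ((C \ S' : Finset V) : Set V) ⊆ ((S \ S' : Finset V) : Set V) := by
        intro x hx
        have hx' : x ∈ C ∧ x ∉ S' := by simpa using hx
        have : x ∈ S ∧ x ∉ S' := ⟨hCS hx'.1, hx'.2⟩
        simpa using this
      by_cases hbC : b ∈ C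
      · rcases h4 with h4 | ⟨h4, h5⟩
        · exfalso
          have : b ∈ C \ S' := mem_sdiff.2 ⟨hbC, hb'.2⟩
          rw [h4] at this
          exact absurd this (notMem_empty b)
        · have hbm : b ∈ ((C \ S' : Finset V) : Set V) := by simp [hbC, hb'.2]
          have hrm2 : r' ∈ ((C \ S' : Finset V) : Set V) := by exact_mod_cast h4
          exact ((h5.2 b hbm r' hrm2).mono hsub2).trans (RW.single hadj hrm')
      · have hbm : b ∈ ((S \ C : Finset V) : Set V) := by simp [hb'.1, hbC]
        have hrm2 : r ∈ ((S \ C : Finset V) : Set V) := by simp [hr, hrC]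
        exact (hSC.2 b hbm r hrm2).mono hsub1

open Classical in
/-- Peeling off a connected piece with between `k` and `2 k - 1` marked vertices. -/
theorem peel (G : SimpleGraph V) (X : Finset V) {k : ℕ} (hk : 1 ≤ k)
    (hdeg : ∀ v, (univ.filter (G.Adj v)).card ≤ 3) (S : Finset V) (hS : Conn G (S : Set V))
    (hX : 3 * k - 1 ≤ (X ∩ S).card) :
    ∃ S' : Finset V, S' ⊆ S ∧ Conn G (S' : Set V) ∧ k ≤ (X ∩ S').card ∧
        (X ∩ S').card ≤ 2 * k - 1 ∧ Conn G ((S \ S' : Finset V) : Set V) := by
  obtain ⟨r, hr⟩ := hS.1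
  have hr : r ∈ S := by exact_mod_cast hr
  have hd3 : (S.filter (G.Adj r)).card ≤ 3 :=
    (card_le_card (filter_subset_filter _ (subset_univ S))).trans (hdeg r)
  obtain ⟨C, hCS, hrC, hC, hkC, hSC, r', hr', hadj, hd'⟩ :=
    core G X hk hdeg S hS hr hd3 (by omega)
  obtain ⟨S', hS'C, h1, h2, h3, h4⟩ :=
    peel_root G X hk hdeg C.card C rfl hC r' hr' hd' hkC
  have hrS' : r ∉ S' := fun h => hrC (hS'C h)
  have hrm : r ∈ S \ S' := mem_sdiff.2 ⟨hr, hrS'⟩
  refine ⟨S', hS'C.trans hCS, h1, h2, h3, ?_⟩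
  have hrm' : r ∈ ((S \ S' : Finset V) : Set V) := by exact_mod_cast hrm
  refine conn_of_root hrm' ?_
  intro b hb
  have hb' : b ∈ S ∧ b ∉ S' := by simpa using hb
  have hsub1 : ((S \ C : Finset V) : Set V) ⊆ ((S \ S' : Finset V) : Set V) := by
    intro x hx
    have hx' : x ∈ S ∧ x ∉ C := by simpa using hx
    have : x ∈ S ∧ x ∉ S' := ⟨hx'.1, fun h => hx'.2 (hS'C h)⟩
    simpa using this
  have hsub2 : ((C \ S' : Finset V) : Set V) ⊆ ((S \ S' : Finset V) : Set V) := by
    intro x hx
    have hx' : x ∈ C ∧ x ∉ S' := by simpa using hx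
    have : x ∈ S ∧ x ∉ S' := ⟨hCS hx'.1, hx'.2⟩
    simpa using this
  by_cases hbC : b ∈ C
  · rcases h4 with h4 | ⟨h4, h5⟩
    · exfalso
      have : b ∈ C \ S' := mem_sdiff.2 ⟨hbC, hb'.2⟩
      rw [h4] at this
      exact absurd this (notMem_empty b)
    · have hbm : b ∈ ((C \ S' : Finset V) : Set V) := by simp [hbC, hb'.2]
      have hrm2 : r' ∈ ((C \ S' : Finset V) : Set V) := by exact_mod_cast h4
      exact ((h5.2 b hbm r' hrm2).mono hsub2).trans (RW.single hadj hrm')
  · have hbm : b ∈ ((S \ C : Finset V) : Set V) := by simp [hb'.1, hbC]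
    have hrm2 : r ∈ ((S \ C : Finset V) : Set V) := by simp [hr, hrC]
    exact (hSC.2 b hbm r hrm2).mono hsub1

open Classical in
/-- `m + 1` disjoint pieces in a connected set with at least `m (2k-1) + k` marked vertices. -/
theorem pieces (G : SimpleGraph V) (X : Finset V) {k : ℕ} (hk : 1 ≤ k)
    (hdeg : ∀ v, (univ.filter (G.Adj v)).card ≤ 3) :
    ∀ (m : ℕ) (S : Finset V), Conn G (S : Set V) → m * (2 * k - 1) + k ≤ (X ∩ S).card →
      ∃ F : Fin (m + 1) → Finset V,
        (∀ i, F i ⊆ S ∧ Conn G (F i : Set V) ∧ k ≤ (X ∩ F i).card) ∧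
        ∀ i j, i ≠ j → Disjoint (F i) (F j) := by
  intro m
  induction m with
  | zero =>
    intro S hS hX
    refine ⟨fun _ => S, fun _ => ⟨Subset.refl _, hS, by simpa using hX⟩, ?_⟩
    intro i j hij
    exact absurd (Fin.ext (by have := i.2; have := j.2; omega)) hij
  | succ m ih =>
    intro S hS hX
    have h3 : 3 * k - 1 ≤ (X ∩ S).card := by
      have : (m + 1) * (2 * k - 1) = m * (2 * k - 1) + (2 * k - 1) := by ring
      rw [this] at hX
      omega
    obtain ⟨S', h1, h2, h4, h5, h6⟩ := peel G X hk hdeg S hS h3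
    have hcard : (X ∩ S).card ≤ (X ∩ S').card + (X ∩ (S \ S')).card := by
      have : X ∩ S ⊆ (X ∩ S') ∪ (X ∩ (S \ S')) := by
        intro x hx
        rw [mem_inter] at hx
        by_cases hxS : x ∈ S'
        · exact mem_union_left _ (mem_inter.2 ⟨hx.1, hxS⟩)
        · exact mem_union_right _ (mem_inter.2 ⟨hx.1, mem_sdiff.2 ⟨hx.2, hxS⟩⟩)
      exact (card_le_card this).trans (card_union_le _ _)
    obtain ⟨F, hF1, hF2⟩ := ih (S \ S') h6 (by
      have : (m + 1) * (2 * k - 1) = m * (2 * k - 1) + (2 * k - 1) := by ring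
      rw [this] at hX
      omega)
    refine ⟨Fin.cons S' F, ?_, ?_⟩
    · intro i
      refine Fin.cases ?_ (fun i => ?_) i
      · exact ⟨h1, h2, h4⟩
      · simp only [Fin.cons_succ]
        exact ⟨(hF1 i).1.trans sdiff_subset, (hF1 i).2⟩
    · intro i j
      refine Fin.cases ?_ (fun i => ?_) i <;> refine Fin.cases ?_ (fun j => ?_) j
      · intro h; exact absurd rfl h
      · intro _
        simp only [Fin.cons_zero, Fin.cons_succ]
        exact (disjoint_sdiff.mono_right (hF1 j).1)
      · intro _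
        simp only [Fin.cons_zero, Fin.cons_succ]
        exact (disjoint_sdiff.mono_right (hF1 i).1).symm
      · intro h
        simp only [Fin.cons_succ]
        exact hF2 i j (fun h' => h (by rw [h']))

open Classical in
/-- **GRID G3.** `m` pairwise disjoint connected sets with at least `k` marked vertices each, in a
connected set with at least `(m + 1) (2 k - 1)` marked vertices of a graph of maximum degree at
most `3`. -/
theorem disjoint_pieces (G : SimpleGraph V) (X S : Finset V) {k : ℕ} (hk : 1 ≤ k) (m : ℕ)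
    (hdeg : ∀ v, (univ.filter (G.Adj v)).card ≤ 3) (hS : Conn G (S : Set V))
    (hX : (m + 1) * (2 * k - 1) ≤ (X ∩ S).card) :
    ∃ F : Fin m → Finset V,
      (∀ i, F i ⊆ S ∧ (G.induce (F i : Set V)).Connected ∧ k ≤ (X ∩ F i).card) ∧
        ∀ i j, i ≠ j → Disjoint (F i) (F j) := by
  rcases m with _ | m
  · exact ⟨Fin.elim0, fun i => i.elim0, fun i => i.elim0⟩
  · have : (m + 1 + 1) * (2 * k - 1) = m * (2 * k - 1) + (2 * k - 1) + (2 * k - 1) := by ring
    rw [this] at hX
    obtain ⟨F, h1, h2⟩ := pieces G X hk hdeg m S hS (by omega)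
    exact ⟨F, fun i => ⟨(h1 i).1, (h1 i).2.1.connected, (h1 i).2.2⟩, h2⟩

open Classical in
/-- **GRID G3, tree form.** -/
theorem tree_pieces (T : SimpleGraph V) (hT : T.IsTree) (X : Finset V) {k : ℕ} (hk : 1 ≤ k)
    (m : ℕ) (hdeg : ∀ v, (univ.filter (T.Adj v)).card ≤ 3)
    (hX : (m + 1) * (2 * k - 1) ≤ X.card) :
    ∃ F : Fin m → Finset V,
      (∀ i, (T.induce (F i : Set V)).Connected ∧ k ≤ (X ∩ F i).card) ∧
        ∀ i j, i ≠ j → Disjoint (F i) (F j) := by
  have hc : Conn T ((univ : Finset V) : Set V) := by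
    obtain ⟨a⟩ := hT.connected.nonempty
    refine ⟨⟨a, by simp⟩, ?_⟩
    intro x _ y _
    obtain ⟨p⟩ := hT.connected.preconnected x y
    induction p with
    | nil => exact Relation.ReflTransGen.refl
    | cons h q ih => exact RW.trans (RW.single h (by simp)) (ih (by simp) (by simp))
  obtain ⟨F, h1, h2⟩ := disjoint_pieces T X univ hk m hdeg hc (by simpa using hX)
  exact ⟨F, fun i => (h1 i).2, h2⟩

end Fin

end Vale.Agent.P235.H250
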