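import Vale.Agent.P235.H134.Grid.Stmts
import Vale.Agent.P235.H250.SubTree

/-!
# P235 / GRID, row G3: splitting the tree of a mesh
-/

namespace Vale.Agent.P235.H250

open SimpleGraph Vale.Agent.P235.H134

/-- (G3') -/
theorem splitComb : SplitCombStmt := by
  classical
  intro k m hk V _ T W X hW hdeg hXW hX
  have : Fintype V := Fintype.ofFinite V
  let S : Finset V := Set.toFinset W
  have hSW : (S : Set V) = W := by simp [S]
  have hdeg' : ∀ v, (Finset.univ.filter (T.Adj v)).card ≤ 3 := by
    intro v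
    have h := hdeg v
    rw [Set.ncard_eq_toFinset_card' (T.neighborSet v)] at h
    refine le_trans (le_of_eq ?_) h
    congr 1
    ext x
    simp
  have hSc : Conn T (S : Set V) := by
    rw [hSW]; exact conn_of_connected hW
  have hXS : X ∩ S = X := by
    apply Finset.inter_eq_left.2
    intro x hx
    have : x ∈ W := hXW (by exact_mod_cast hx)
    simpa [S] using this
  have hcard : (m + 1) * (2 * k - 1) ≤ (X ∩ S).card := by
    rw [hXS]
    refine le_trans ?_ hX
    exact Nat.mul_le_mul_left _ (by omega)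
  obtain ⟨F, hF1, hF2⟩ := disjoint_pieces T X S hk m hdeg' hSc hcard
  refine ⟨fun i => (F i : Set V), ?_, ?_, ?_, ?_⟩
  · intro i
    rw [← hSW]
    exact_mod_cast (hF1 i).1
  · intro i j hij
    show Disjoint (F i : Set V) (F j : Set V)
    rw [Finset.disjoint_coe]
    exact hF2 i j hij
  · intro i
    exact (hF1 i).2.1
  · intro i
    obtain ⟨Y, hY, hYc⟩ := Finset.exists_subset_card_eq (hF1 i).2.2
    refine ⟨Y, hY.trans Finset.inter_subset_left, ?_, hYc⟩
    intro y hy
    exact_mod_cast (Finset.mem_inter.1 (hY (by exact_mod_cast hy))).2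

/-- (G3) -/
theorem split : SplitStmt := by
  classical
  intro k m hk V _ G hG
  obtain ⟨C, W, T, X, hTG, hWC, hW, hdeg, hXW, hX, hP⟩ := hG
  obtain ⟨S, hSW, hSd, hSc, hY⟩ := splitComb k m hk V T W X hW hdeg hXW (le_of_eq hX.symm)
  choose Y hYX hYS hYc using hY
  refine ⟨C, S, fun i => (Y i : Set V), ?_, hSd, ?_, hYS, ?_⟩
  · intro i
    exact hWC.mono_left (hSW i)
  · intro i
    exact (hSc i).mono (SimpleGraph.comap_monotone _ hTG)
  · intro i j hij
    have hdis : Disjoint (Y i) (Y j) := by
      rw [← Finset.disjoint_coe]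
      exact (hSd i j hij).mono (hYS i) (hYS j)
    obtain ⟨P, hP1, hP2⟩ := hP (Y i) (Y j) (hYX i) (hYX j) hdis
      ((hYc i).trans (hYc j).symm) (le_of_eq (hYc i))
    refine ⟨fun a => P (Fin.cast (hYc i).symm a), ⟨fun a => hP1.1 _, ?_⟩, fun a => hP2 _⟩
    intro a b hab
    refine hP1.2 _ _ ?_
    intro h
    apply hab
    exact Fin.cast_injective _ h

end Vale.Agent.P235.H250
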